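import Vale.Agent.H15.P150.Main

namespace Vale.Agent.Results.P150.GapOverlap

open Vale.Agent.H15.P150

/-- For every disorder and every `β` the spectral gap of the heat-bath dynamics of the
Sherrington-Kirkpatrick model is at most `1 / (n ⟨R²⟩)`, and every constant in a Poincare
inequality satisfies this bound. -/
theorem result (n : ℕ) (hn : 2 ≤ n) (β : ℝ) (g : Fin n → Fin n → ℝ) :
    gap (wt β g) * (n * overlapSq (wt β g)) ≤ 1 ∧
    (∀ γ : ℝ, (∀ f : (Fin n → Bool) → ℝ,
        γ * variance (wt β g) f ≤ dirichlet (wt β g) f) →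
      γ * (n * overlapSq (wt β g)) ≤ 1) :=
  ⟨gap_bound (by omega) _ (wt_pos β g) (wt_symm β g),
   fun γ hγ => poincare_bound (by omega) _ (wt_pos β g) (wt_symm β g) γ hγ⟩

end Vale.Agent.Results.P150.GapOverlap
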